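import Vale.Agent.P258.R2.H267.S7.Lemmas

set_option linter.all false

namespace Vale.Agent.P258.Seven

open Matrix

/-- Conjugation by an invertible matrix. -/
noncomputable def cjHom (V : M) (hV : V.det ≠ 0) : G →* G where
  toFun x := ⟨V * x.1 * V⁻¹, by
    rw [Matrix.det_mul, Matrix.det_mul, x.2, mul_one, ← Matrix.det_mul,
      Matrix.mul_nonsing_inv _ (isUnit_iff_ne_zero.2 hV), Matrix.det_one]⟩
  map_one' := by
    apply Subtype.ext
    change V * (1 : M) * V⁻¹ = 1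
    rw [mul_one, Matrix.mul_nonsing_inv _ (isUnit_iff_ne_zero.2 hV)]
  map_mul' x y := by
    apply Subtype.ext
    change V * (x.1 * y.1) * V⁻¹ = V * x.1 * V⁻¹ * (V * y.1 * V⁻¹)
    have h : V⁻¹ * V = 1 := Matrix.nonsing_inv_mul _ (isUnit_iff_ne_zero.2 hV)
    calc V * (x.1 * y.1) * V⁻¹ = V * x.1 * (1 * y.1) * V⁻¹ := by
          rw [one_mul, mul_assoc V x.1 y.1]
      _ = V * x.1 * (V⁻¹ * V * y.1) * V⁻¹ := by rw [h]
      _ = V * x.1 * V⁻¹ * (V * y.1 * V⁻¹) := by simp only [mul_assoc]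

theorem cjHom_eq (V : M) (hV : V.det ≠ 0) (x : G) (z : M) (h : V * x.1 = z * V) :
    (cjHom V hV x).1 = z := by
  change V * x.1 * V⁻¹ = z
  rw [h, mul_assoc, Matrix.mul_nonsing_inv _ (isUnit_iff_ne_zero.2 hV), mul_one]

theorem cjHom_inj (V : M) (hV : V.det ≠ 0) : Function.Injective (cjHom V hV) := by
  intro x y h
  have h1 : V * x.1 * V⁻¹ = V * y.1 * V⁻¹ := congrArg Subtype.val h
  have h2 : V⁻¹ * V = 1 := Matrix.nonsing_inv_mul _ (isUnit_iff_ne_zero.2 hV)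
  apply Subtype.ext
  calc x.1 = (V⁻¹ * V) * x.1 * (V⁻¹ * V) := by rw [h2, one_mul, mul_one]
    _ = V⁻¹ * (V * x.1 * V⁻¹) * V := by simp only [mul_assoc]
    _ = V⁻¹ * (V * y.1 * V⁻¹) * V := by rw [h1]
    _ = (V⁻¹ * V) * y.1 * (V⁻¹ * V) := by simp only [mul_assoc]
    _ = y.1 := by rw [h2, one_mul, mul_one]

theorem tr_conj (x k : G) : tr (k⁻¹ * x * k).1 = tr x.1 := by
  rw [tr_eq, tr_eq]
  have h1 : (k⁻¹ * x * k).1 = (k⁻¹ * x).1 * k.1 := rfl
  have h2 : x.1 = k.1 * (k⁻¹ * x).1 := by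
    have : x = k * (k⁻¹ * x) := by group
    exact congrArg Subtype.val this
  rw [h1, Matrix.trace_mul_comm, ← h2]

theorem tr_cjHom (V : M) (hV : V.det ≠ 0) (x : G) : tr (cjHom V hV x).1 = tr x.1 := by
  rw [tr_eq, tr_eq]
  change (V * x.1 * V⁻¹).trace = x.1.trace
  rw [Matrix.trace_mul_comm, ← mul_assoc,
    Matrix.nonsing_inv_mul _ (isUnit_iff_ne_zero.2 hV), one_mul]

/-- The matrix `α + β C`. -/
def E (t α β : Z) : M := !![α, β; -β, α + t * β]

theorem cM_E (t α β : Z) : cM (E t α β) = cen t.val α.val β.val := by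
  unfold cM E cen
  simp only [Matrix.of_apply, Matrix.cons_val', Matrix.cons_val_zero, Matrix.cons_val_one,
    Matrix.empty_val', Matrix.cons_val_fin_one]
  rw [negN_eq, ZMod.val_add, ZMod.val_mul]
  congr 1
  change (α.val + t.val * β.val % 7) % 7 = (α.val + t.val * β.val) % 7
  rw [Nat.add_mod_mod]

theorem comm_C {t : Z} {X : M} (h : C t * X = X * C t) : X = E t (X 0 0) (X 0 1) := by
  have hX : X = !![X 0 0, X 0 1; X 1 0, X 1 1] := Matrix.eta_fin_two X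
  set a := X 0 0
  set b := X 0 1
  set c := X 1 0
  set d := X 1 1
  rw [hX] at h ⊢
  unfold C at h
  rw [Matrix.mul_fin_two, Matrix.mul_fin_two] at h
  have h00 := congrFun (congrFun h 0) 0
  have h01 := congrFun (congrFun h 0) 1
  simp at h00 h01
  unfold E
  have e1 : c = -b := by linear_combination h00
  have e2 : d = a + t * b := by linear_combination h01
  rw [e1, e2]

theorem trans_gen {F : Type*} [Field F] (P Q g h y K : Matrix (Fin 2) (Fin 2) F)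
    (d1 : P.det ≠ 0) (d2 : Q.det ≠ 0) (e1 : P * g = K * P) (e2 : Q * h = K * Q)
    (hyy : g * y = y * h) : ∃ X, K * X = X * K ∧ y = P.adjugate * X * Q := by
  have iP : P⁻¹ * P = 1 := Matrix.nonsing_inv_mul _ (isUnit_iff_ne_zero.2 d1)
  have iQ : Q⁻¹ * Q = 1 := Matrix.nonsing_inv_mul _ (isUnit_iff_ne_zero.2 d2)
  have iQ' : Q * Q⁻¹ = 1 := Matrix.mul_nonsing_inv _ (isUnit_iff_ne_zero.2 d2)
  have hQC : Q⁻¹ * K = h * Q⁻¹ := by
    calc Q⁻¹ * K = Q⁻¹ * K * (Q * Q⁻¹) := by rw [iQ', mul_one]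
      _ = Q⁻¹ * (K * Q) * Q⁻¹ := by simp only [mul_assoc]
      _ = Q⁻¹ * (Q * h) * Q⁻¹ := by rw [e2]
      _ = (Q⁻¹ * Q) * h * Q⁻¹ := by simp only [mul_assoc]
      _ = h * Q⁻¹ := by rw [iQ, one_mul]
  refine ⟨(P.det)⁻¹ • (P * y * Q⁻¹), ?_, ?_⟩
  · rw [Matrix.mul_smul, Matrix.smul_mul]
    congr 1
    calc K * (P * y * Q⁻¹) = (K * P) * y * Q⁻¹ := by simp only [mul_assoc]
      _ = (P * g) * y * Q⁻¹ := by rw [e1]
      _ = P * (g * y) * Q⁻¹ := by simp only [mul_assoc]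
      _ = P * (y * h) * Q⁻¹ := by rw [hyy]
      _ = P * y * (h * Q⁻¹) := by simp only [mul_assoc]
      _ = P * y * (Q⁻¹ * K) := by rw [hQC]
      _ = P * y * Q⁻¹ * K := by simp only [mul_assoc]
  · rw [Matrix.mul_smul, Matrix.smul_mul]
    have : P.adjugate * (P * y * Q⁻¹) * Q = (P.adjugate * P) * y * (Q⁻¹ * Q) := by
      simp only [mul_assoc]
    rw [this, Matrix.adjugate_mul, iQ, mul_one, Matrix.smul_mul, one_mul, smul_smul,
      inv_mul_cancel₀ d1, one_smul]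

/-- All elements conjugating `g` to `h`. -/
theorem transporter {g h y : G} (hg : g * g ≠ 1) (hh : h * h ≠ 1) (hy : h = y⁻¹ * g * y) :
    ∃ α β : Z, code y =
      mulN (mulN (invN (wN (code g))) (cen (tr g.1).val α.val β.val)) (wN (code h)) := by
  have ht : tr h.1 = tr g.1 := by rw [hy, tr_conj]
  obtain ⟨e1, d1⟩ := W_spec g hg
  obtain ⟨e2, d2⟩ := W_spec h hh
  rw [ht] at e2
  have hyy : g.1 * y.1 = y.1 * h.1 := by
    have : g * y = y * h := by rw [hy]; group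
    exact congrArg Subtype.val this
  obtain ⟨X, hX, hyX⟩ := trans_gen (W g.1) (W h.1) g.1 h.1 y.1 (C (tr g.1)) d1 d2 e1 e2 hyy
  refine ⟨X 0 0, X 0 1, ?_⟩
  have h3 : code y = cM ((W g.1).adjugate * X * W h.1) := congrArg cM hyX
  have h4 : cM X = cen (tr g.1).val (X 0 0).val (X 0 1).val := by
    rw [← cM_E]
    exact congrArg cM (comm_C hX)
  rw [h3, cM_mul, cM_mul, cM_adj, cM_W, cM_W, h4]
  rfl

end Vale.Agent.P258.Seven
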