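import Vale.Agent.P258.R2.H267.S7.Sound
import Vale.Agent.P258.H331.Main
import Vale.Agent.P258.R2.H394.Spec

set_option linter.all false

namespace Vale.Agent.P258.Seven

theorem patRel_of_isCol {H : Type} [Group H] (v : Fin 33 → H) (h : patternB.IsCol v) : PatRel v := by
  have g : ∀ a : Fin 33, v (Second.nextV a) = v (Second.aboveV a) ^ (-(Second.sgnV a : ℤ)) * v a *
      v (Second.aboveV a) ^ (Second.sgnV a : ℤ) := by
    intro a
    rw [← Second.nextV_eq, ← Second.aboveV_eq, ← Second.sgnV_eq]
    exact h a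
  constructor
  · have := g 0; simp [Second.nextV, Second.aboveV, Second.sgnV] at this; rw [this]; group
  · have := g 1; simp [Second.nextV, Second.aboveV, Second.sgnV] at this; rw [this]; group
  · have := g 2; simp [Second.nextV, Second.aboveV, Second.sgnV] at this; rw [this]; group
  · have := g 3; simp [Second.nextV, Second.aboveV, Second.sgnV] at this; exact this
  · have := g 4; simp [Second.nextV, Second.aboveV, Second.sgnV] at this; exact this
  · have := g 5; simp [Second.nextV, Second.aboveV, Second.sgnV] at this; exact this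
  · have := g 6; simp [Second.nextV, Second.aboveV, Second.sgnV] at this; exact this
  · have := g 7; simp [Second.nextV, Second.aboveV, Second.sgnV] at this; rw [this]; group
  · have := g 8; simp [Second.nextV, Second.aboveV, Second.sgnV] at this; exact this
  · have := g 9; simp [Second.nextV, Second.aboveV, Second.sgnV] at this; exact this
  · have := g 10; simp [Second.nextV, Second.aboveV, Second.sgnV] at this; exact this
  · have := g 11; simp [Second.nextV, Second.aboveV, Second.sgnV] at this; exact this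
  · have := g 12; simp [Second.nextV, Second.aboveV, Second.sgnV] at this; exact this
  · have := g 13; simp [Second.nextV, Second.aboveV, Second.sgnV] at this; exact this
  · have := g 14; simp [Second.nextV, Second.aboveV, Second.sgnV] at this; exact this
  · have := g 15; simp [Second.nextV, Second.aboveV, Second.sgnV] at this; exact this
  · have := g 16; simp [Second.nextV, Second.aboveV, Second.sgnV] at this; exact this
  · have := g 17; simp [Second.nextV, Second.aboveV, Second.sgnV] at this; exact this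
  · have := g 18; simp [Second.nextV, Second.aboveV, Second.sgnV] at this; exact this
  · have := g 19; simp [Second.nextV, Second.aboveV, Second.sgnV] at this; exact this
  · have := g 20; simp [Second.nextV, Second.aboveV, Second.sgnV] at this; exact this
  · have := g 21; simp [Second.nextV, Second.aboveV, Second.sgnV] at this; exact this
  · have := g 22; simp [Second.nextV, Second.aboveV, Second.sgnV] at this; exact this
  · have := g 23; simp [Second.nextV, Second.aboveV, Second.sgnV] at this; exact this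
  · have := g 24; simp [Second.nextV, Second.aboveV, Second.sgnV] at this; rw [this]; group
  · have := g 25; simp [Second.nextV, Second.aboveV, Second.sgnV] at this; rw [this]; group
  · have := g 26; simp [Second.nextV, Second.aboveV, Second.sgnV] at this; rw [this]; group
  · have := g 27; simp [Second.nextV, Second.aboveV, Second.sgnV] at this; exact this
  · have := g 28; simp [Second.nextV, Second.aboveV, Second.sgnV] at this; rw [this]; group
  · have := g 29; simp [Second.nextV, Second.aboveV, Second.sgnV] at this; rw [this]; group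
  · have := g 30; simp [Second.nextV, Second.aboveV, Second.sgnV] at this; exact this
  · have := g 31; simp [Second.nextV, Second.aboveV, Second.sgnV] at this; exact this
  · have := g 32; simp [Second.nextV, Second.aboveV, Second.sgnV] at this; rw [this]; group

theorem isCol_of_patRel {H : Type} [Group H] (v : Fin 33 → H) (h : PatRel v) : patternB.IsCol v := by
  have g : ∀ a : Fin 33, v (Second.nextV a) = v (Second.aboveV a) ^ (-(Second.sgnV a : ℤ)) * v a *
      v (Second.aboveV a) ^ (Second.sgnV a : ℤ) := by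
    intro a
    fin_cases a
    · have := h.f0; simp [Second.nextV, Second.aboveV, Second.sgnV]; rw [this]; group
    · have := h.f1; simp [Second.nextV, Second.aboveV, Second.sgnV]; rw [this]; group
    · have := h.f2; simp [Second.nextV, Second.aboveV, Second.sgnV]; rw [this]; group
    · simpa [Second.nextV, Second.aboveV, Second.sgnV] using h.f3
    · simpa [Second.nextV, Second.aboveV, Second.sgnV] using h.f4
    · simpa [Second.nextV, Second.aboveV, Second.sgnV] using h.f5
    · simpa [Second.nextV, Second.aboveV, Second.sgnV] using h.f6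
    · have := h.f7; simp [Second.nextV, Second.aboveV, Second.sgnV]; rw [this]; group
    · simpa [Second.nextV, Second.aboveV, Second.sgnV] using h.f8
    · simpa [Second.nextV, Second.aboveV, Second.sgnV] using h.f9
    · simpa [Second.nextV, Second.aboveV, Second.sgnV] using h.f10
    · simpa [Second.nextV, Second.aboveV, Second.sgnV] using h.f11
    · simpa [Second.nextV, Second.aboveV, Second.sgnV] using h.f12
    · simpa [Second.nextV, Second.aboveV, Second.sgnV] using h.f13
    · simpa [Second.nextV, Second.aboveV, Second.sgnV] using h.f14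
    · simpa [Second.nextV, Second.aboveV, Second.sgnV] using h.f15
    · simpa [Second.nextV, Second.aboveV, Second.sgnV] using h.f16
    · simpa [Second.nextV, Second.aboveV, Second.sgnV] using h.f17
    · simpa [Second.nextV, Second.aboveV, Second.sgnV] using h.f18
    · simpa [Second.nextV, Second.aboveV, Second.sgnV] using h.f19
    · simpa [Second.nextV, Second.aboveV, Second.sgnV] using h.f20
    · simpa [Second.nextV, Second.aboveV, Second.sgnV] using h.f21
    · simpa [Second.nextV, Second.aboveV, Second.sgnV] using h.f22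
    · simpa [Second.nextV, Second.aboveV, Second.sgnV] using h.f23
    · have := h.f24; simp [Second.nextV, Second.aboveV, Second.sgnV]; rw [this]; group
    · have := h.f25; simp [Second.nextV, Second.aboveV, Second.sgnV]; rw [this]; group
    · have := h.f26; simp [Second.nextV, Second.aboveV, Second.sgnV]; rw [this]; group
    · simpa [Second.nextV, Second.aboveV, Second.sgnV] using h.f27
    · have := h.f28; simp [Second.nextV, Second.aboveV, Second.sgnV]; rw [this]; group
    · have := h.f29; simp [Second.nextV, Second.aboveV, Second.sgnV]; rw [this]; group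
    · simpa [Second.nextV, Second.aboveV, Second.sgnV] using h.f30
    · simpa [Second.nextV, Second.aboveV, Second.sgnV] using h.f31
    · have := h.f32; simp [Second.nextV, Second.aboveV, Second.sgnV]; rw [this]; group
  intro a
  change Fin 33 at a
  have h1 := g a
  rw [← Second.nextV_eq a, ← Second.aboveV_eq a, ← Second.sgnV_eq a] at h1
  exact h1

theorem arc_term {H : Type} [Group H] (v : Fin 33 → H) (b : Fin 33) :
    v (patternB.above b) ^ ((patternB.sgn b : ℤˣ) : ℤ) = v (Second.aboveV b) ^ (Second.sgnV b : ℤ) := by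
  rw [Second.aboveV_eq, Second.sgnV_eq]

theorem lonVal_K {H : Type} [Group H] (v : Fin 33 → H) : patternB.lonVal v patternBK = lamB v := by
  have h : (fun b : Fin 33 => v (patternB.above b) ^ ((patternB.sgn b : ℤˣ) : ℤ)) =
      fun b => v (Second.aboveV b) ^ (Second.sgnV b : ℤ) := funext (arc_term v)
  have h1 : (List.map (fun b : Fin 33 => v (patternB.above b) ^ ((patternB.sgn b : ℤˣ) : ℤ))
      [0, 1, 2, 3, 4, 5, 6, 7, 8, 9, 10, 11, 12, 13, 14, 15, 16, 17, 18, 19, 20, 21, 22, 23, 24,
        25, 26, 27, 28, 29, 30]).prod =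
      v 26 ^ (-1 : ℤ) * (v 25 ^ (-1 : ℤ) * (v 31 ^ (-1 : ℤ) * (v 11 ^ (1 : ℤ) * (v 10 ^ (1 : ℤ) *
        (v 9 ^ (1 : ℤ) * (v 8 ^ (1 : ℤ) * (v 29 ^ (-1 : ℤ) * (v 6 ^ (1 : ℤ) * (v 5 ^ (1 : ℤ) * (v
        4 ^ (1 : ℤ) * (v 3 ^ (1 : ℤ) * (v 22 ^ (1 : ℤ) * (v 21 ^ (1 : ℤ) * (v 20 ^ (1 : ℤ) * (v 19
        ^ (1 : ℤ) * (v 18 ^ (1 : ℤ) * (v 0 ^ (1 : ℤ) * (v 16 ^ (1 : ℤ) * (v 15 ^ (1 : ℤ) * (v 14 ^
        (1 : ℤ) * (v 13 ^ (1 : ℤ) * (v 12 ^ (1 : ℤ) * (v 31 ^ (1 : ℤ) * (v 2 ^ (-1 : ℤ) * (v 1 ^
        (-1 : ℤ) * (v 0 ^ (-1 : ℤ) * (v 7 ^ (1 : ℤ) * (v 8 ^ (-1 : ℤ) * (v 7 ^ (-1 : ℤ) * (v 17 ^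
        (1 : ℤ) * (1))))))))))))))))))))))))))))))) := by
    rw [h]
    rfl
  have h3 := lonVal_eq (D := patternB) v patternBK _ _ _ Second.walk_K Second.writhe_K h1
  have h2 : v patternBK = v 0 := rfl
  rw [h2] at h3
  rw [h3]
  simp only [lamB, zpow_one, zpow_neg_one, mul_one, mul_assoc]

theorem lonVal_E {H : Type} [Group H] (v : Fin 33 → H) : patternB.lonVal v patternBE = v 24 * (v 2)⁻¹ := by
  have h : (fun b : Fin 33 => v (patternB.above b) ^ ((patternB.sgn b : ℤˣ) : ℤ)) =
      fun b => v (Second.aboveV b) ^ (Second.sgnV b : ℤ) := funext (arc_term v)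
  have h1 : (List.map (fun b : Fin 33 => v (patternB.above b) ^ ((patternB.sgn b : ℤˣ) : ℤ))
      [31, 32]).prod = v 24 ^ (1 : ℤ) * (v 2 ^ (-1 : ℤ) * (1)) := by
    rw [h]
    rfl
  have h3 := lonVal_eq (D := patternB) v patternBE _ _ _ Second.walk_E Second.writhe_E h1
  rw [h3]
  simp only [zpow_one, zpow_neg_one, mul_one, neg_zero, zpow_zero]

theorem sq_next (D : Diagram) (ρ : Fin D.n → G) (h : D.IsCol ρ) (a : Fin D.n) :
    ρ (D.next a) * ρ (D.next a) = 1 ↔ ρ a * ρ a = 1 := by
  rw [h a]
  set k := ρ (D.above a) ^ (D.sgn a : ℤ) with hk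
  have hk' : ρ (D.above a) ^ (-(D.sgn a : ℤ)) = k⁻¹ := by rw [hk, zpow_neg]
  rw [hk']
  constructor
  · intro h1
    calc ρ a * ρ a = k * (k⁻¹ * ρ a * k * (k⁻¹ * ρ a * k)) * k⁻¹ := by group
      _ = 1 := by rw [h1]; group
  · intro h1
    calc k⁻¹ * ρ a * k * (k⁻¹ * ρ a * k) = k⁻¹ * (ρ a * ρ a) * k := by group
      _ = 1 := by rw [h1]; group

theorem sq_same (D : Diagram) (ρ : Fin D.n → G) (h : D.IsCol ρ) {a b : Fin D.n}
    (hab : D.SameComponent a b) : ρ b * ρ b = 1 ↔ ρ a * ρ a = 1 := by
  obtain ⟨i, rfl⟩ := hab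
  induction i with
  | zero => rfl
  | succ i ih => rw [Function.iterate_succ_apply', sq_next D ρ h, ih]

theorem tr_next (D : Diagram) (ρ : Fin D.n → G) (h : D.IsCol ρ) (a : Fin D.n) :
    tr (ρ (D.next a)).1 = tr (ρ a).1 := by
  rw [h a]
  have hk' : ρ (D.above a) ^ (-(D.sgn a : ℤ)) = (ρ (D.above a) ^ (D.sgn a : ℤ))⁻¹ := by
    rw [zpow_neg]
  rw [hk', tr_conj]

theorem tr_same (D : Diagram) (ρ : Fin D.n → G) (h : D.IsCol ρ) {a b : Fin D.n}
    (hab : D.SameComponent a b) : tr (ρ b).1 = tr (ρ a).1 := by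
  obtain ⟨i, rfl⟩ := hab
  induction i with
  | zero => rfl
  | succ i ih => rw [Function.iterate_succ_apply', tr_next D ρ h, ih]

theorem cj_sq (φ : G →* G) (hφ : Function.Injective φ) (y : G) (h : φ y * φ y = 1) :
    y * y = 1 := by
  apply hφ
  rw [map_mul, h, map_one]

theorem norm_one (x : G) (hx : x * x ≠ 1) : ∃ φ : G →* G, Function.Injective φ ∧
    (φ x).1 = C (tr x.1) ∧ ∀ y, tr (φ y).1 = tr y.1 := by
  obtain ⟨e1, d1⟩ := W_spec x hx
  exact ⟨cjHom (W x.1) d1, cjHom_inj (W x.1) d1, cjHom_eq (W x.1) d1 x (C (tr x.1)) e1,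
    fun y => tr_cjHom (W x.1) d1 y⟩

theorem norm_two (x y : G) (hx : x * x ≠ 1) (hy : y * y ≠ 1) (ht : tr y.1 = tr x.1) :
    ∃ φ : G →* G, Function.Injective φ ∧ code (φ x) = cmp (tr x.1).val ∧
      code (φ y) ∈ orb (tr x.1).val ∧ tr (φ x).1 = tr x.1 := by
  obtain ⟨ψ, i1, e1, f1⟩ := norm_one x hx
  have hs : ψ y * ψ y ≠ 1 := fun h1 => hy (cj_sq ψ i1 y h1)
  have ht2 : tr (ψ y).1 = tr x.1 := (f1 y).trans ht
  obtain ⟨c, z, d2, hcC, hcz, horb⟩ := exists_orb hs
  rw [ht2] at hcC horb
  have hcC' : c * (ψ x).1 = C (tr x.1) * c := by rw [e1]; exact hcC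
  have h2 : (cjHom c d2 (ψ x)).1 = C (tr x.1) := cjHom_eq c d2 (ψ x) (C (tr x.1)) hcC'
  have h3 : (cjHom c d2 (ψ y)).1 = z := cjHom_eq c d2 (ψ y) z hcz
  refine ⟨(cjHom c d2).comp ψ, (cjHom_inj c d2).comp i1, ?_, ?_, ?_⟩
  · exact (congrArg cM h2).trans (cM_C (tr x.1))
  · have h4 : code ((cjHom c d2).comp ψ y) = cM z := congrArg cM h3
    rw [h4]
    exact horb
  · exact (tr_cjHom c d2 (ψ x)).trans (f1 x)

theorem col_cond (ρ : Fin 33 → G) (φ : G →* G) (hφ : Function.Injective φ) (v : Fin 33 → G)
    (hv : v = fun a => φ (ρ a))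
    (hE : patternB.lonVal ρ patternBE = 1 → ρ 31 = 1)
    (hl : ρ 0 * ρ 0 * patternB.lonVal ρ patternBK = 1) :
    (v 24 * (v 2)⁻¹ = 1 → v 31 = 1) ∧ v 0 * v 0 * lamB v = 1 := by
  have e3 : patternB.lonVal v patternBE = φ (patternB.lonVal ρ patternBE) := by
    rw [hv]
    exact Diagram.lonVal_map patternB ρ φ patternBE
  have k3 : patternB.lonVal v patternBK = φ (patternB.lonVal ρ patternBK) := by
    rw [hv]
    exact Diagram.lonVal_map patternB ρ φ patternBK
  have v31 : v 31 = φ (ρ 31) := by rw [hv]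
  have v0 : v 0 = φ (ρ 0) := by rw [hv]
  constructor
  · intro h1
    have h2 : patternB.lonVal v patternBE = 1 := (lonVal_E v).trans h1
    have h4 : patternB.lonVal ρ patternBE = 1 :=
      hφ ((e3.symm.trans h2).trans (map_one φ).symm)
    rw [v31, hE h4, map_one]
  · have h6 : lamB v = φ (patternB.lonVal ρ patternBK) := (lonVal_K v).symm.trans k3
    rw [h6, v0, ← map_mul, ← map_mul, hl, map_one]

theorem key_aux (v : Fin 33 → G) (hv : patternB.IsCol v) (t : Z)
    (hsv : ∀ b : Fin 33, b.val < 31 → v b * v b ≠ 1) (ht : tr (v 7).1 = t)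
    (h7 : code (v 7) = cmp t.val) (h29 : code (v 29) ∈ orb t.val)
    (hE : v 24 * (v 2)⁻¹ = 1 → v 31 = 1) : v 0 * v 0 * lamB v ≠ 1 := by
  have htv : ∀ b : Fin 33, b.val < 31 → tr (v b).1 = t := by
    intro b hb
    have h1 := tr_same patternB v hv ((Second.comp_K b).2 hb)
    have h2 := tr_same patternB v hv ((Second.comp_K 7).2 (by decide))
    exact h1.trans (h2.symm.trans ht)
  have hP : PatRel v := patRel_of_isCol v hv
  have h23 : code (v 23) ∈ cl t.val := by
    have := mem_cl (hsv 23 (by decide))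
    rwa [htv 23 (by decide)] at this
  have hc : ∃ α β : Z, code (v 31) =
      mulN (mulN (invN (wN (code (v 23)))) (cen t.val α.val β.val)) (wN (code (v 24))) := by
    have := transporter (g := v 23) (h := v 24) (y := v 31) (hsv 23 (by decide))
      (hsv 24 (by decide)) hP.f23
    rwa [htv 23 (by decide)] at this
  exact sound v hP hE t.val h7 h29 h23 hc (all_dig check (lt7 t))

theorem keyR (ρ : Fin 33 → G) (h : patternB.IsCol ρ)
    (hE : patternB.lonVal ρ patternBE = 1 → ρ 31 = 1)
    (hl : ρ 0 * ρ 0 * patternB.lonVal ρ patternBK = 1) : ρ 0 * ρ 0 = 1 := by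
  by_contra hne
  have hsq : ∀ b : Fin 33, b.val < 31 → ρ b * ρ b ≠ 1 := fun b hb h1 =>
    hne ((sq_same patternB ρ h ((Second.comp_K b).2 hb)).1 h1)
  have ht : tr (ρ 29).1 = tr (ρ 7).1 :=
    (tr_same patternB ρ h ((Second.comp_K 29).2 (by decide))).trans
      (tr_same patternB ρ h ((Second.comp_K 7).2 (by decide))).symm
  obtain ⟨φ, hφ, h7, h29, ht7⟩ := norm_two (ρ 7) (ρ 29) (hsq 7 (by decide))
    (hsq 29 (by decide)) ht
  obtain ⟨c1, c2⟩ := col_cond ρ φ hφ (fun a => φ (ρ a)) rfl hE hl
  have hv : patternB.IsCol (fun a => φ (ρ a)) := Diagram.IsCol.map patternB h φ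
  exact key_aux (fun a => φ (ρ a)) hv (tr (ρ 7).1)
    (fun b hb h1 => hsq b hb (cj_sq φ hφ (ρ b) h1)) ht7 h7 h29 c1 c2

/-- The element with a given code. -/
def toG (x : ℕ) : G :=
  if h : (toM x).det = 1 then (⟨toM x, h⟩ : G) else 1

theorem code_toG {x : ℕ} (h1 : okD x = true) (h2 : Nat.beq (detN x) 1 = true) :
    code (toG x) = x := by
  have h3 : (toM x).det = 1 := by
    apply ZMod.val_injective 7
    rw [← cM_det, cM_toM h1, Nat.eq_of_beq_eq_true h2]
    rfl
  have h4 : toG x = (⟨toM x, h3⟩ : G) := dif_pos h3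
  rw [h4]
  exact cM_toM h1

/-- The colouring given by a list of codes. -/
def colL (l : List ℕ) (i : Fin 33) : G := toG (l.getD i.val 0)

/-- The list gives elements of the group. -/
def okL (l : List ℕ) : Prop := ∀ i : Fin 33, (okD (l.getD i.val 0) &&
    Nat.beq (detN (l.getD i.val 0)) 1) = true

theorem code_colL {l : List ℕ} (h : okL l) (i : Fin 33) : code (colL l i) = l.getD i.val 0 := by
  have h := h i
  rw [Bool.and_eq_true] at h
  exact code_toG h.1 h.2

/-- The relation `v b = (v k)⁻¹ * v a * v k` for the codes. -/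
def rl (l : List ℕ) (b k a : ℕ) : Bool := Nat.beq (l.getD b 0) (cjN (l.getD a 0) (l.getD k 0))

theorem cj_of {l : List ℕ} (hl : okL l) (a b k : Fin 33) (h : rl l b.val k.val a.val = true) :
    colL l b = (colL l k)⁻¹ * colL l a * colL l k := by
  apply code_inj
  rw [code_cj, code_colL hl, code_colL hl, code_colL hl]
  exact Nat.eq_of_beq_eq_true h

/-- A colouring of the second pattern with `λ = μ ^ 2 ≠ 1`. -/
def La : List ℕ :=
  [12341, 13061, 25938, 13061, 25122, 8518, 20579, 5648, 8518, 25122, 13061, 1105,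
    17716, 26162, 4656, 12341, 20531, 561, 8518, 16964, 24898, 5440, 12357, 20547,
    21507, 20547, 8742, 21507, 12309, 4896, 16964, 13923, 8244]

theorem oka : okL La := by unfold okL; decide +kernel

theorem rela : PatRel (colL La) where
  f0 := cj_of oka 1 0 26 (by decide +kernel)
  f1 := cj_of oka 2 1 25 (by decide +kernel)
  f2 := cj_of oka 3 2 31 (by decide +kernel)
  f3 := cj_of oka 3 4 11 (by decide +kernel)
  f4 := cj_of oka 4 5 10 (by decide +kernel)
  f5 := cj_of oka 5 6 9 (by decide +kernel)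
  f6 := cj_of oka 6 7 8 (by decide +kernel)
  f7 := cj_of oka 8 7 29 (by decide +kernel)
  f8 := cj_of oka 8 9 6 (by decide +kernel)
  f9 := cj_of oka 9 10 5 (by decide +kernel)
  f10 := cj_of oka 10 11 4 (by decide +kernel)
  f11 := cj_of oka 11 12 3 (by decide +kernel)
  f12 := cj_of oka 12 13 22 (by decide +kernel)
  f13 := cj_of oka 13 14 21 (by decide +kernel)
  f14 := cj_of oka 14 15 20 (by decide +kernel)
  f15 := cj_of oka 15 16 19 (by decide +kernel)
  f16 := cj_of oka 16 17 18 (by decide +kernel)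
  f17 := cj_of oka 17 18 0 (by decide +kernel)
  f18 := cj_of oka 18 19 16 (by decide +kernel)
  f19 := cj_of oka 19 20 15 (by decide +kernel)
  f20 := cj_of oka 20 21 14 (by decide +kernel)
  f21 := cj_of oka 21 22 13 (by decide +kernel)
  f22 := cj_of oka 22 23 12 (by decide +kernel)
  f23 := cj_of oka 23 24 31 (by decide +kernel)
  f24 := cj_of oka 25 24 2 (by decide +kernel)
  f25 := cj_of oka 26 25 1 (by decide +kernel)
  f26 := cj_of oka 27 26 0 (by decide +kernel)
  f27 := cj_of oka 27 28 7 (by decide +kernel)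
  f28 := cj_of oka 29 28 8 (by decide +kernel)
  f29 := cj_of oka 30 29 7 (by decide +kernel)
  f30 := cj_of oka 30 0 17 (by decide +kernel)
  f31 := cj_of oka 31 32 24 (by decide +kernel)
  f32 := cj_of oka 31 32 2 (by decide +kernel)

theorem sepa : IsHom patternB (colL La) ∧
    lon patternB (colL La) patternBK = colL La patternBK ^ 2 ∧
    colL La patternBK ^ 2 ≠ 1 ∧
    colL La patternBE = lon patternB (colL La) patternBE ^ (2 : ℕ) ∧
    lon patternB (colL La) patternBE ^ (6 : ℕ) = 1 := by
  have e1 : lon patternB (colL La) patternBE = colL La 24 * (colL La 2)⁻¹ :=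
    (patternB.lift_longitude (colL La) patternBE).trans (lonVal_E _)
  have e2 : lon patternB (colL La) patternBK = lamB (colL La) :=
    (patternB.lift_longitude (colL La) patternBK).trans (lonVal_K _)
  refine ⟨fun a => (patternB.lift_wirtinger (colL La) a).2 (isCol_of_patRel _ rela a), ?_, ?_,
    ?_, ?_⟩
  · rw [e2]
    change lamB (colL La) = colL La 0 ^ 2
    rw [pow_two]
    apply code_inj
    unfold lamB
    rw [code_mul (_ : G) (colL La 0 ^ (-(13 : ℤ))), code_inv13]
    simp only [code_mul, code_inv, code_one, code_colL oka]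
    decide +kernel
  · change colL La 0 ^ 2 ≠ 1
    rw [pow_two]
    intro h
    have := congrArg code h
    rw [code_mul, code_one, code_colL oka] at this
    revert this
    decide +kernel
  · rw [e1]
    change colL La 31 = _
    apply code_inj
    simp only [pow_succ, pow_zero, one_mul, code_mul, code_inv, code_one, code_colL oka]
    decide +kernel
  · rw [e1]
    apply code_inj
    simp only [pow_succ, pow_zero, one_mul, code_mul, code_inv, code_one, code_colL oka]
    decide +kernel

/-- A colouring of the second pattern with `λ = μ ^ 2 ≠ 1`. -/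
def Lb : List ℕ :=
  [12341, 13061, 25938, 13061, 25122, 8518, 20579, 5648, 8518, 25122, 13061, 1105,
    17716, 26162, 4656, 12341, 20531, 561, 8518, 16964, 24898, 5440, 12357, 20547,
    21507, 20547, 8742, 21507, 12309, 4896, 16964, 16660, 20547]

theorem okb : okL Lb := by unfold okL; decide +kernel

theorem relb : PatRel (colL Lb) where
  f0 := cj_of okb 1 0 26 (by decide +kernel)
  f1 := cj_of okb 2 1 25 (by decide +kernel)
  f2 := cj_of okb 3 2 31 (by decide +kernel)
  f3 := cj_of okb 3 4 11 (by decide +kernel)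
  f4 := cj_of okb 4 5 10 (by decide +kernel)
  f5 := cj_of okb 5 6 9 (by decide +kernel)
  f6 := cj_of okb 6 7 8 (by decide +kernel)
  f7 := cj_of okb 8 7 29 (by decide +kernel)
  f8 := cj_of okb 8 9 6 (by decide +kernel)
  f9 := cj_of okb 9 10 5 (by decide +kernel)
  f10 := cj_of okb 10 11 4 (by decide +kernel)
  f11 := cj_of okb 11 12 3 (by decide +kernel)
  f12 := cj_of okb 12 13 22 (by decide +kernel)
  f13 := cj_of okb 13 14 21 (by decide +kernel)
  f14 := cj_of okb 14 15 20 (by decide +kernel)
  f15 := cj_of okb 15 16 19 (by decide +kernel)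
  f16 := cj_of okb 16 17 18 (by decide +kernel)
  f17 := cj_of okb 17 18 0 (by decide +kernel)
  f18 := cj_of okb 18 19 16 (by decide +kernel)
  f19 := cj_of okb 19 20 15 (by decide +kernel)
  f20 := cj_of okb 20 21 14 (by decide +kernel)
  f21 := cj_of okb 21 22 13 (by decide +kernel)
  f22 := cj_of okb 22 23 12 (by decide +kernel)
  f23 := cj_of okb 23 24 31 (by decide +kernel)
  f24 := cj_of okb 25 24 2 (by decide +kernel)
  f25 := cj_of okb 26 25 1 (by decide +kernel)
  f26 := cj_of okb 27 26 0 (by decide +kernel)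
  f27 := cj_of okb 27 28 7 (by decide +kernel)
  f28 := cj_of okb 29 28 8 (by decide +kernel)
  f29 := cj_of okb 30 29 7 (by decide +kernel)
  f30 := cj_of okb 30 0 17 (by decide +kernel)
  f31 := cj_of okb 31 32 24 (by decide +kernel)
  f32 := cj_of okb 31 32 2 (by decide +kernel)

theorem sepb : IsHom patternB (colL Lb) ∧
    lon patternB (colL Lb) patternBK = colL Lb patternBK ^ 2 ∧
    colL Lb patternBK ^ 2 ≠ 1 ∧
    colL Lb patternBE = lon patternB (colL Lb) patternBE ^ (5 : ℕ) ∧
    lon patternB (colL Lb) patternBE ^ (6 : ℕ) = 1 := by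
  have e1 : lon patternB (colL Lb) patternBE = colL Lb 24 * (colL Lb 2)⁻¹ :=
    (patternB.lift_longitude (colL Lb) patternBE).trans (lonVal_E _)
  have e2 : lon patternB (colL Lb) patternBK = lamB (colL Lb) :=
    (patternB.lift_longitude (colL Lb) patternBK).trans (lonVal_K _)
  refine ⟨fun a => (patternB.lift_wirtinger (colL Lb) a).2 (isCol_of_patRel _ relb a), ?_, ?_,
    ?_, ?_⟩
  · rw [e2]
    change lamB (colL Lb) = colL Lb 0 ^ 2
    rw [pow_two]
    apply code_inj
    unfold lamB
    rw [code_mul (_ : G) (colL Lb 0 ^ (-(13 : ℤ))), code_inv13]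
    simp only [code_mul, code_inv, code_one, code_colL okb]
    decide +kernel
  · change colL Lb 0 ^ 2 ≠ 1
    rw [pow_two]
    intro h
    have := congrArg code h
    rw [code_mul, code_one, code_colL okb] at this
    revert this
    decide +kernel
  · rw [e1]
    change colL Lb 31 = _
    apply code_inj
    simp only [pow_succ, pow_zero, one_mul, code_mul, code_inv, code_one, code_colL okb]
    decide +kernel
  · rw [e1]
    apply code_inj
    simp only [pow_succ, pow_zero, one_mul, code_mul, code_inv, code_one, code_colL okb]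
    decide +kernel

/-- A colouring of the second pattern with `λ = μ ^ 2 ≠ 1`. -/
def Lc : List ℕ :=
  [1553, 20499, 12309, 5648, 5648, 5648, 5648, 5648, 5648, 5648, 5648, 5648,
    5648, 12309, 20499, 1553, 9238, 16660, 20579, 353, 9062, 18020, 25442, 4448,
    25442, 18020, 9062, 353, 353, 353, 353, 5377, 22052]

theorem okc : okL Lc := by unfold okL; decide +kernel

theorem relc : PatRel (colL Lc) where
  f0 := cj_of okc 1 0 26 (by decide +kernel)
  f1 := cj_of okc 2 1 25 (by decide +kernel)
  f2 := cj_of okc 3 2 31 (by decide +kernel)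
  f3 := cj_of okc 3 4 11 (by decide +kernel)
  f4 := cj_of okc 4 5 10 (by decide +kernel)
  f5 := cj_of okc 5 6 9 (by decide +kernel)
  f6 := cj_of okc 6 7 8 (by decide +kernel)
  f7 := cj_of okc 8 7 29 (by decide +kernel)
  f8 := cj_of okc 8 9 6 (by decide +kernel)
  f9 := cj_of okc 9 10 5 (by decide +kernel)
  f10 := cj_of okc 10 11 4 (by decide +kernel)
  f11 := cj_of okc 11 12 3 (by decide +kernel)
  f12 := cj_of okc 12 13 22 (by decide +kernel)
  f13 := cj_of okc 13 14 21 (by decide +kernel)
  f14 := cj_of okc 14 15 20 (by decide +kernel)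
  f15 := cj_of okc 15 16 19 (by decide +kernel)
  f16 := cj_of okc 16 17 18 (by decide +kernel)
  f17 := cj_of okc 17 18 0 (by decide +kernel)
  f18 := cj_of okc 18 19 16 (by decide +kernel)
  f19 := cj_of okc 19 20 15 (by decide +kernel)
  f20 := cj_of okc 20 21 14 (by decide +kernel)
  f21 := cj_of okc 21 22 13 (by decide +kernel)
  f22 := cj_of okc 22 23 12 (by decide +kernel)
  f23 := cj_of okc 23 24 31 (by decide +kernel)
  f24 := cj_of okc 25 24 2 (by decide +kernel)
  f25 := cj_of okc 26 25 1 (by decide +kernel)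
  f26 := cj_of okc 27 26 0 (by decide +kernel)
  f27 := cj_of okc 27 28 7 (by decide +kernel)
  f28 := cj_of okc 29 28 8 (by decide +kernel)
  f29 := cj_of okc 30 29 7 (by decide +kernel)
  f30 := cj_of okc 30 0 17 (by decide +kernel)
  f31 := cj_of okc 31 32 24 (by decide +kernel)
  f32 := cj_of okc 31 32 2 (by decide +kernel)

theorem sepc : IsHom patternB (colL Lc) ∧
    lon patternB (colL Lc) patternBK = colL Lc patternBK ^ 2 ∧
    colL Lc patternBK ^ 2 ≠ 1 ∧
    colL Lc patternBE = lon patternB (colL Lc) patternBE ^ (8 : ℕ) ∧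
    lon patternB (colL Lc) patternBE ^ (14 : ℕ) = 1 := by
  have e1 : lon patternB (colL Lc) patternBE = colL Lc 24 * (colL Lc 2)⁻¹ :=
    (patternB.lift_longitude (colL Lc) patternBE).trans (lonVal_E _)
  have e2 : lon patternB (colL Lc) patternBK = lamB (colL Lc) :=
    (patternB.lift_longitude (colL Lc) patternBK).trans (lonVal_K _)
  refine ⟨fun a => (patternB.lift_wirtinger (colL Lc) a).2 (isCol_of_patRel _ relc a), ?_, ?_,
    ?_, ?_⟩
  · rw [e2]
    change lamB (colL Lc) = colL Lc 0 ^ 2
    rw [pow_two]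
    apply code_inj
    unfold lamB
    rw [code_mul (_ : G) (colL Lc 0 ^ (-(13 : ℤ))), code_inv13]
    simp only [code_mul, code_inv, code_one, code_colL okc]
    decide +kernel
  · change colL Lc 0 ^ 2 ≠ 1
    rw [pow_two]
    intro h
    have := congrArg code h
    rw [code_mul, code_one, code_colL okc] at this
    revert this
    decide +kernel
  · rw [e1]
    change colL Lc 31 = _
    apply code_inj
    simp only [pow_succ, pow_zero, one_mul, code_mul, code_inv, code_one, code_colL okc]
    decide +kernel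
  · rw [e1]
    apply code_inj
    simp only [pow_succ, pow_zero, one_mul, code_mul, code_inv, code_one, code_colL okc]
    decide +kernel

/-- A colouring of the second pattern with `λ = μ ^ 2 ≠ 1`. -/
def Ld : List ℕ :=
  [1553, 20499, 12309, 5648, 5648, 5648, 5648, 5648, 5648, 5648, 5648, 5648,
    5648, 12309, 20499, 1553, 9238, 16660, 20579, 353, 9062, 18020, 25442, 4448,
    25442, 18020, 9062, 353, 353, 353, 353, 25094, 8531]

theorem okd : okL Ld := by unfold okL; decide +kernel

theorem reld : PatRel (colL Ld) where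
  f0 := cj_of okd 1 0 26 (by decide +kernel)
  f1 := cj_of okd 2 1 25 (by decide +kernel)
  f2 := cj_of okd 3 2 31 (by decide +kernel)
  f3 := cj_of okd 3 4 11 (by decide +kernel)
  f4 := cj_of okd 4 5 10 (by decide +kernel)
  f5 := cj_of okd 5 6 9 (by decide +kernel)
  f6 := cj_of okd 6 7 8 (by decide +kernel)
  f7 := cj_of okd 8 7 29 (by decide +kernel)
  f8 := cj_of okd 8 9 6 (by decide +kernel)
  f9 := cj_of okd 9 10 5 (by decide +kernel)
  f10 := cj_of okd 10 11 4 (by decide +kernel)
  f11 := cj_of okd 11 12 3 (by decide +kernel)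
  f12 := cj_of okd 12 13 22 (by decide +kernel)
  f13 := cj_of okd 13 14 21 (by decide +kernel)
  f14 := cj_of okd 14 15 20 (by decide +kernel)
  f15 := cj_of okd 15 16 19 (by decide +kernel)
  f16 := cj_of okd 16 17 18 (by decide +kernel)
  f17 := cj_of okd 17 18 0 (by decide +kernel)
  f18 := cj_of okd 18 19 16 (by decide +kernel)
  f19 := cj_of okd 19 20 15 (by decide +kernel)
  f20 := cj_of okd 20 21 14 (by decide +kernel)
  f21 := cj_of okd 21 22 13 (by decide +kernel)
  f22 := cj_of okd 22 23 12 (by decide +kernel)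
  f23 := cj_of okd 23 24 31 (by decide +kernel)
  f24 := cj_of okd 25 24 2 (by decide +kernel)
  f25 := cj_of okd 26 25 1 (by decide +kernel)
  f26 := cj_of okd 27 26 0 (by decide +kernel)
  f27 := cj_of okd 27 28 7 (by decide +kernel)
  f28 := cj_of okd 29 28 8 (by decide +kernel)
  f29 := cj_of okd 30 29 7 (by decide +kernel)
  f30 := cj_of okd 30 0 17 (by decide +kernel)
  f31 := cj_of okd 31 32 24 (by decide +kernel)
  f32 := cj_of okd 31 32 2 (by decide +kernel)

theorem sepd : IsHom patternB (colL Ld) ∧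
    lon patternB (colL Ld) patternBK = colL Ld patternBK ^ 2 ∧
    colL Ld patternBK ^ 2 ≠ 1 ∧
    colL Ld patternBE = lon patternB (colL Ld) patternBE ^ (1 : ℕ) ∧
    lon patternB (colL Ld) patternBE ^ (14 : ℕ) = 1 := by
  have e1 : lon patternB (colL Ld) patternBE = colL Ld 24 * (colL Ld 2)⁻¹ :=
    (patternB.lift_longitude (colL Ld) patternBE).trans (lonVal_E _)
  have e2 : lon patternB (colL Ld) patternBK = lamB (colL Ld) :=
    (patternB.lift_longitude (colL Ld) patternBK).trans (lonVal_K _)
  refine ⟨fun a => (patternB.lift_wirtinger (colL Ld) a).2 (isCol_of_patRel _ reld a), ?_, ?_,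
    ?_, ?_⟩
  · rw [e2]
    change lamB (colL Ld) = colL Ld 0 ^ 2
    rw [pow_two]
    apply code_inj
    unfold lamB
    rw [code_mul (_ : G) (colL Ld 0 ^ (-(13 : ℤ))), code_inv13]
    simp only [code_mul, code_inv, code_one, code_colL okd]
    decide +kernel
  · change colL Ld 0 ^ 2 ≠ 1
    rw [pow_two]
    intro h
    have := congrArg code h
    rw [code_mul, code_one, code_colL okd] at this
    revert this
    decide +kernel
  · rw [e1]
    change colL Ld 31 = _
    apply code_inj
    simp only [pow_succ, pow_zero, one_mul, code_mul, code_inv, code_one, code_colL okd]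
    decide +kernel
  · rw [e1]
    apply code_inj
    simp only [pow_succ, pow_zero, one_mul, code_mul, code_inv, code_one, code_colL okd]
    decide +kernel

theorem zpow_mod {H : Type*} [Group H] (x : H) (o r : ℕ) (hx : x ^ o = 1) (f : ℤ)
    (hf : f % (o : ℤ) = r) : x ^ f = x ^ r := by
  have h := Int.mul_ediv_add_emod f o
  rw [hf] at h
  have ho : x ^ (o : ℤ) = 1 := by exact_mod_cast hx
  rw [← h, zpow_add, zpow_mul, ho, one_zpow, one_mul]
  exact_mod_cast rfl

theorem of_col (ρ : Fin patternB.n → G) (o r : ℕ) (h : IsHom patternB ρ ∧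
    lon patternB ρ patternBK = ρ patternBK ^ 2 ∧ ρ patternBK ^ 2 ≠ 1 ∧
    ρ patternBE = lon patternB ρ patternBE ^ r ∧ lon patternB ρ patternBE ^ o = 1) (f : ℤ)
    (hf : f % (o : ℤ) = r) : ∃ ρ : Fin patternB.n → G, IsHom patternB ρ ∧
      lon patternB ρ patternBK = ρ patternBK ^ 2 ∧ ρ patternBK ^ 2 ≠ 1 ∧
      ρ patternBE = lon patternB ρ patternBE ^ f :=
  ⟨ρ, h.1, h.2.1, h.2.2.1, by rw [zpow_mod _ o r h.2.2.2.2 f hf]; exact h.2.2.2.1⟩

theorem separates (f : ℤ) (hf : f % 3 = 2 ∨ f % 7 = 1) : SeparatesMirror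
    (Matrix.SpecialLinearGroup (Fin 2) (ZMod 7)) patternB patternBK patternBE f := by
  refine ⟨?_, ?_⟩
  · intro ρ h1 h2 h3
    have hcol : patternB.IsCol ρ := fun a => (patternB.lift_wirtinger ρ a).1 (h1 a)
    have e1 : lon patternB ρ patternBE = patternB.lonVal ρ patternBE :=
      patternB.lift_longitude ρ patternBE
    have e2 : lon patternB ρ patternBK = patternB.lonVal ρ patternBK :=
      patternB.lift_longitude ρ patternBK
    rw [e1] at h2
    rw [e2, pow_two] at h3
    have h4 := keyR ρ hcol h2 h3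
    rw [pow_two]
    exact h4
  · rcases hf with hf | hf
    · have h6 : f % 6 = 2 ∨ f % 6 = 5 := by omega
      rcases h6 with h6 | h6
      · exact of_col (colL La) 6 2 sepa f (by exact_mod_cast h6)
      · exact of_col (colL Lb) 6 5 sepb f (by exact_mod_cast h6)
    · have h14 : f % 14 = 8 ∨ f % 14 = 1 := by omega
      rcases h14 with h14 | h14
      · exact of_col (colL Lc) 14 8 sepc f (by exact_mod_cast h14)
      · exact of_col (colL Ld) 14 1 sepd f (by exact_mod_cast h14)

end Vale.Agent.P258.Seven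

namespace Vale.Agent.P258

/-- Row R7. -/
theorem Seven.rowR7 : RowR7 := ⟨Seven.separates, Seven.pow168⟩

end Vale.Agent.P258
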