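import Vale.Agent.P258.R2.H267.S7.Steps
import Vale.Agent.P258.R2.H267.S7.Facts
import Vale.Agent.P258.Bdl.B1

set_option linter.all false

namespace Vale.Agent.P258.Seven

/-- The conjugation relations of a coloured second pattern. -/
structure PatRel {H : Type} [Group H] (v : Fin 33 → H) : Prop where
  f0 : v 0 = (v 26)⁻¹ * v 1 * v 26
  f1 : v 1 = (v 25)⁻¹ * v 2 * v 25
  f2 : v 2 = (v 31)⁻¹ * v 3 * v 31
  f3 : v 4 = (v 11)⁻¹ * v 3 * v 11
  f4 : v 5 = (v 10)⁻¹ * v 4 * v 10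
  f5 : v 6 = (v 9)⁻¹ * v 5 * v 9
  f6 : v 7 = (v 8)⁻¹ * v 6 * v 8
  f7 : v 7 = (v 29)⁻¹ * v 8 * v 29
  f8 : v 9 = (v 6)⁻¹ * v 8 * v 6
  f9 : v 10 = (v 5)⁻¹ * v 9 * v 5
  f10 : v 11 = (v 4)⁻¹ * v 10 * v 4
  f11 : v 12 = (v 3)⁻¹ * v 11 * v 3
  f12 : v 13 = (v 22)⁻¹ * v 12 * v 22
  f13 : v 14 = (v 21)⁻¹ * v 13 * v 21
  f14 : v 15 = (v 20)⁻¹ * v 14 * v 20
  f15 : v 16 = (v 19)⁻¹ * v 15 * v 19
  f16 : v 17 = (v 18)⁻¹ * v 16 * v 18
  f17 : v 18 = (v 0)⁻¹ * v 17 * v 0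
  f18 : v 19 = (v 16)⁻¹ * v 18 * v 16
  f19 : v 20 = (v 15)⁻¹ * v 19 * v 15
  f20 : v 21 = (v 14)⁻¹ * v 20 * v 14
  f21 : v 22 = (v 13)⁻¹ * v 21 * v 13
  f22 : v 23 = (v 12)⁻¹ * v 22 * v 12
  f23 : v 24 = (v 31)⁻¹ * v 23 * v 31
  f24 : v 24 = (v 2)⁻¹ * v 25 * v 2
  f25 : v 25 = (v 1)⁻¹ * v 26 * v 1
  f26 : v 26 = (v 0)⁻¹ * v 27 * v 0
  f27 : v 28 = (v 7)⁻¹ * v 27 * v 7
  f28 : v 28 = (v 8)⁻¹ * v 29 * v 8
  f29 : v 29 = (v 7)⁻¹ * v 30 * v 7
  f30 : v 0 = (v 17)⁻¹ * v 30 * v 17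
  f31 : v 32 = (v 24)⁻¹ * v 31 * v 24
  f32 : v 32 = (v 2)⁻¹ * v 31 * v 2

theorem fwd {a b k : G} (h : b = k⁻¹ * a * k) : code b = cjN (code a) (code k) := by
  rw [h, code_cj]

theorem bwd {a b k : G} (h : b = k⁻¹ * a * k) : code a = ciN (code b) (code k) := by
  have : a = k * b * k⁻¹ := by rw [h]; group
  rw [this, code_ci]

theorem all_step {l : List ℕ} {x : ℕ} {p : ℕ → Bool} (h : l.all p = true) (hx : x ∈ l) :
    p x = true := List.all_eq_true.1 h x hx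

theorem code_inv13 (x : G) : code (x ^ (-(13 : ℤ))) = inv13 (code x) := by
  have h : x ^ (-(13 : ℤ)) = (((x⁻¹ * x⁻¹) * (x⁻¹ * x⁻¹)) * ((x⁻¹ * x⁻¹) * (x⁻¹ * x⁻¹))) *
      ((x⁻¹ * x⁻¹) * (x⁻¹ * x⁻¹)) * x⁻¹ := by group
  rw [h]
  simp only [code_mul, code_inv]
  unfold inv13
  simp only [force_eq]

/-- The value of the longitude of `K`. -/
def lamB {H : Type} [Group H] (v : Fin 33 → H) : H := (((((((((((((((((((((((((((((((v 26)⁻¹ * (v 25)⁻¹) * (v 31)⁻¹) *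
    v 11) * v 10) * v 9) * v 8) * (v 29)⁻¹) * v 6) * v 5) * v 4) * v 3) * v 22) * v 21) * v 20) *
    v 19) * v 18) * v 0) * v 16) * v 15) * v 14) * v 13) * v 12) * v 31) * (v 2)⁻¹) * (v 1)⁻¹) *
    (v 0)⁻¹) * v 7) * (v 8)⁻¹) * (v 7)⁻¹) * v 17) * v 0 ^ (-(13 : ℤ))

theorem sound (v : Fin 33 → G) (h : PatRel v) (hE : v 24 * (v 2)⁻¹ = 1 → v 31 = 1) (t : ℕ)
    (h7 : code (v 7) = cmp t)
    (h29 : code (v 29) ∈ orb t) (h23 : code (v 23) ∈ cl t)
    (hc : ∃ α β : Z, code (v 31) =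
      mulN (mulN (invN (wN (code (v 23)))) (cen t α.val β.val)) (wN (code (v 24))))
    (hd : st0 t = true) : v 0 * v 0 * lamB v ≠ 1 := by
  obtain ⟨α, β, ec⟩ := hc
  unfold st0 at hd
  rw [force_eq, ← h7] at hd
  unfold st1 at hd
  replace hd := all_step hd h29
  unfold st2 at hd
  rw [force_eq, ← bwd h.f7] at hd
  unfold st3 at hd
  rw [force_eq, ← fwd h.f28] at hd
  unfold st4 at hd
  rw [force_eq, ← bwd h.f29] at hd
  unfold st5 at hd
  rw [force_eq, ← bwd h.f6] at hd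
  unfold st6 at hd
  rw [force_eq, ← fwd h.f8] at hd
  unfold st7 at hd
  rw [force_eq, ← bwd h.f27] at hd
  unfold st8 at hd
  rw [force_eq, ← bwd h.f5] at hd
  unfold st9 at hd
  rw [force_eq, ← fwd h.f9] at hd
  unfold st10 at hd
  rw [force_eq, ← bwd h.f4] at hd
  unfold st11 at hd
  rw [force_eq, ← fwd h.f10] at hd
  unfold st12 at hd
  rw [force_eq, ← bwd h.f3] at hd
  unfold st13 at hd
  rw [force_eq, ← fwd h.f11] at hd
  unfold st14 at hd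
  replace hd := all_step hd h23
  unfold st15 at hd
  rw [force_eq, ← bwd h.f22] at hd
  unfold st16 at hd
  rw [force_eq, ← fwd h.f12] at hd
  unfold st17 at hd
  rw [force_eq, ← bwd h.f21] at hd
  unfold st18 at hd
  rw [force_eq, ← fwd h.f13] at hd
  unfold st19 at hd
  rw [force_eq, ← bwd h.f20] at hd
  unfold st20 at hd
  rw [force_eq, ← fwd h.f14] at hd
  unfold st21 at hd
  rw [force_eq, ← bwd h.f19] at hd
  unfold st22 at hd
  rw [force_eq, ← fwd h.f15] at hd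
  unfold st23 at hd
  rw [force_eq, ← bwd h.f18] at hd
  unfold st24 at hd
  rw [force_eq, ← fwd h.f16] at hd
  unfold st25 at hd
  rw [force_eq, ← fwd h.f30] at hd
  unfold st26 at hd
  replace hd := test_step hd (fwd h.f17)
  unfold st27 at hd
  rw [force_eq, ← fwd h.f26] at hd
  unfold st28 at hd
  rw [force_eq, ← bwd h.f0] at hd
  unfold st29 at hd
  rw [force_eq, ← fwd h.f25] at hd
  unfold st30 at hd
  rw [force_eq, ← bwd h.f1] at hd
  unfold st31 at hd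
  rw [force_eq, ← fwd h.f24] at hd
  unfold st32 at hd
  rw [force_eq, force_eq] at hd
  replace hd := all_dig (all_dig hd (lt7 α)) (lt7 β)
  rw [force_eq, ← ec] at hd
  have hdet : Nat.beq (detN (code (v 31))) 1 = true := by
    unfold code
    rw [cM_det, (v 31).2]
    rfl
  rw [hdet, Bool.not_true, Bool.false_or] at hd
  unfold st33 at hd
  replace hd := test_step hd (fwd h.f2)
  unfold st34 at hd
  rw [force_eq, ← fwd h.f31] at hd
  unfold st35 at hd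
  replace hd := test_step hd (fwd h.f32)
  unfold st36 at hd
  intro hlam
  rw [Bool.or_eq_true] at hd
  rcases hd with hd | hd
  · rw [Bool.and_eq_true] at hd
    have h1 : v 24 * (v 2)⁻¹ = 1 := code_inj (by
      rw [code_mul, code_inv, code_one]; exact Nat.eq_of_beq_eq_true hd.1)
    have h2 := hd.2
    rw [hE h1, code_one] at h2
    exact absurd h2 (by decide)
  · have h3 : code (v 0 * v 0 * lamB v) = 4097 := by rw [hlam, code_one]
    unfold lamB at h3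
    rw [code_mul, code_mul (_ : G) (v 0 ^ (-(13 : ℤ))), code_inv13] at h3
    simp only [code_mul, code_inv] at h3
    rw [Bool.not_eq_true'] at hd
    exact Nat.ne_of_beq_eq_false hd h3

end Vale.Agent.P258.Seven
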